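import Vale.Agent.Lib.P134.H28.Rigid

/-!
# P134: De Giorgi's statement for solutions whose level sets are translates of one graph

Let `u (x) = h (x_j - ψ x)` on `ℝ^n`, with `ψ` not depending on the coordinate `x_j`, so
that every level set of `u` is a translate, in the direction of the `j`-th coordinate, of
the graph of `ψ`. If `u` solves the Allen-Cahn equation `Δ u = u^3 - u` with `|u| ≤ 1` and
`∂_j u > 0`, then `ψ` is affine and `u` is one-dimensional. This holds in every dimension.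
-/

namespace Vale.Agent.Results.P134.H28_TranslatedLevelSets

open Vale.Agent.Lib.P134.H28

theorem result (n : ℕ) (j0 : Fin n) (u : (Fin n → ℝ) → ℝ) (h : ℝ → ℝ)
    (ψ : (Fin n → ℝ) → ℝ) (hh : ContDiff ℝ 2 h) (hψ : ContDiff ℝ 3 ψ)
    (hψj : ∀ (x : Fin n → ℝ) (τ : ℝ), ψ (x + τ • Pi.single j0 1) = ψ x)
    (hu : ∀ x, u x = h (x j0 - ψ x))
    (hAC : ∀ x, lap u x = u x ^ 3 - u x)
    (hbd : ∀ x, |u x| ≤ 1)
    (hmono : ∀ x, 0 < pd j0 u x) :
    (∃ (a : Fin n → ℝ) (b : ℝ), ∀ x, ψ x = b + ∑ i, a i * x i) ∧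
      ∃ e : Fin n → ℝ, ∑ i, e i ^ 2 = 1 ∧ ∃ H : ℝ → ℝ, ∀ x, u x = H (∑ i, e i * x i) :=
  translate_rigidity n j0 u h ψ hh hψ hψj hu hAC hbd hmono

end Vale.Agent.Results.P134.H28_TranslatedLevelSets
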